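import Vale.Agent.P021.R2.H626.ChkAll

set_option maxRecDepth 100000

open Polynomial

namespace Vale.Agent.P021.R2.H626

open Vale.Agent.P021.Det (pnt10 PathIn cu)
open Vale.Agent.P021.R2.H332 Vale.Agent.P021.R2.H636

noncomputable def SS : Set ℂ :=
  segment ℝ (pnt10 (3072, 0)) (pnt10 (2954, 131)) ∪
    (segment ℝ (pnt10 (2954, 131)) (pnt10 (2902, 144)) ∪
    (segment ℝ (pnt10 (2902, 144)) (pnt10 (2858, 143)) ∪
    (segment ℝ (pnt10 (2858, 143)) (pnt10 (2815, 133)) ∪
    (segment ℝ (pnt10 (2815, 133)) (pnt10 (2771, 113)) ∪
    (segment ℝ (pnt10 (2771, 113)) (pnt10 (2725, 77)) ∪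
    (segment ℝ (pnt10 (2725, 77)) (pnt10 (2662, 0)) ∪
    (segment ℝ (pnt10 (2662, 0)) (pnt10 (2048, 0)))))))))

noncomputable def TT : Set ℂ :=
  segment ℝ (pnt10 (3277, 0)) (pnt10 (0, 3482)) ∪
    (segment ℝ (pnt10 (0, 3482)) (pnt10 (-3578, 3794)) ∪
    (segment ℝ (pnt10 (-3578, 3794)) (pnt10 (-5378, 1248)) ∪
    (segment ℝ (pnt10 (-5378, 1248)) (pnt10 (-5640, 0)))))

noncomputable def lS : List ℂ :=
  [pnt10 (3072, 0), pnt10 (2954, 131), pnt10 (2902, 144), pnt10 (2858, 143), pnt10 (2815, 133), pnt10 (2771, 113), pnt10 (2725, 77), pnt10 (2662, 0), pnt10 (2048, 0)]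

noncomputable def lT : List ℂ :=
  [pnt10 (3277, 0), pnt10 (0, 3482), pnt10 (-3578, 3794), pnt10 (-5378, 1248), pnt10 (-5640, 0)]

theorem lS_path : PathIn SS lS :=
  ⟨Set.subset_union_left, (Set.subset_union_left).trans Set.subset_union_right, ((Set.subset_union_left).trans Set.subset_union_right).trans Set.subset_union_right, (((Set.subset_union_left).trans Set.subset_union_right).trans Set.subset_union_right).trans Set.subset_union_right, ((((Set.subset_union_left).trans Set.subset_union_right).trans Set.subset_union_right).trans Set.subset_union_right).trans Set.subset_union_right, (((((Set.subset_union_left).trans Set.subset_union_right).trans Set.subset_union_right).trans Set.subset_union_right).trans Set.subset_union_right).trans Set.subset_union_right, ((((((Set.subset_union_left).trans Set.subset_union_right).trans Set.subset_union_right).trans Set.subset_union_right).trans Set.subset_union_right).trans Set.subset_union_right).trans Set.subset_union_right, ((((((Set.subset_union_right).trans Set.subset_union_right).trans Set.subset_union_right).trans Set.subset_union_right).trans Set.subset_union_right).trans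 Set.subset_union_right).trans Set.subset_union_right, trivial⟩

theorem lT_path : PathIn TT lT :=
  ⟨Set.subset_union_left, (Set.subset_union_left).trans Set.subset_union_right, ((Set.subset_union_left).trans Set.subset_union_right).trans Set.subset_union_right, ((Set.subset_union_right).trans Set.subset_union_right).trans Set.subset_union_right, trivial⟩

theorem lS_UU : PathIn UU lS :=
  ⟨sg_up (mem_gt (by norm_num)) (mem_pos (by norm_num)) (by norm_num), sg_up (mem_pos (by norm_num)) (mem_pos (by norm_num)) (by norm_num), sg_up (mem_pos (by norm_num)) (mem_pos (by norm_num)) (by norm_num), sg_up (mem_pos (by norm_num)) (mem_pos (by norm_num)) (by norm_num), sg_up (mem_pos (by norm_num)) (mem_pos (by norm_num)) (by norm_num), sg_up (mem_pos (by norm_num)) (mem_pos (by norm_num)) (by norm_num), sg_up (mem_pos (by norm_num)) (mem_mid (by norm_num) (by norm_num)) (by norm_num), sg_mid (by norm_num) (by norm_num) (by norm_num) (by norm_num), trivial⟩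

theorem lT_UU : PathIn UU lT :=
  ⟨sg_up (mem_gt (by norm_num)) (mem_pos (by norm_num)) (by norm_num), sg_up (mem_pos (by norm_num)) (mem_pos (by norm_num)) (by norm_num), sg_up (mem_pos (by norm_num)) (mem_pos (by norm_num)) (by norm_num), sg_up (mem_pos (by norm_num)) (mem_lt (by norm_num)) (by norm_num), trivial⟩

theorem SS_bdd : Bornology.IsBounded SS := ((sg_bdd _ _).union ((sg_bdd _ _).union ((sg_bdd _ _).union ((sg_bdd _ _).union ((sg_bdd _ _).union ((sg_bdd _ _).union ((sg_bdd _ _).union (sg_bdd _ _))))))))

theorem TT_bdd : Bornology.IsBounded TT := ((sg_bdd _ _).union ((sg_bdd _ _).union ((sg_bdd _ _).union (sg_bdd _ _))))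

theorem funS : FunBound (Lam Real.pi) SS := by
  refine funBound_Lam lS ((3072 : ℝ) / 2 ^ 10) ?_ ?_ ?_ lS_UU SS lS_path
  · have := s8_lt'
    norm_num
    linarith
  · simp only [lS, List.head?_cons, pt_real]
    norm_num
  · simp only [lS, List.getLast?_cons_cons, List.getLast?_singleton, pt_real]
    norm_num

theorem funT : FunBound Bet TT := by
  refine funBound_Bet lT ((3277 : ℝ) / 2 ^ 10) ((-5640 : ℝ) / 2 ^ 10) ?_ ?_ ?_ ?_ lT_UU TT lT_path
  · have := s8_lt'
    norm_num
    linarith
  · have := s8_lt'
    norm_num
    linarith
  · simp only [lT, List.head?_cons, pt_real]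
    norm_num
  · simp only [lT, List.getLast?_cons_cons, List.getLast?_singleton, pt_real]
    norm_num

theorem goodSS : ∀ s ∈ SS, GoodR cfs 168000 328000 224000 clev 0 s := by
  rintro s (hs | hs | hs | hs | hs | hs | hs | hs)
  · exact runSegm_segment datOK (by decide) (by decide) (by decide) (by decide)
      (by decide +kernel) (by decide +kernel) (by decide +kernel) chk0 s hs
  · exact runSegm_segment datOK (by decide) (by decide) (by decide) (by decide)
      (by decide +kernel) (by decide +kernel) (by decide +kernel) chk1 s hs
  · exact runSegm_segment datOK (by decide) (by decide) (by decide) (by decide)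
      (by decide +kernel) (by decide +kernel) (by decide +kernel) chk2 s hs
  · exact runSegm_segment datOK (by decide) (by decide) (by decide) (by decide)
      (by decide +kernel) (by decide +kernel) (by decide +kernel) chk3 s hs
  · exact runSegm_segment datOK (by decide) (by decide) (by decide) (by decide)
      (by decide +kernel) (by decide +kernel) (by decide +kernel) chk4 s hs
  · exact runSegm_segment datOK (by decide) (by decide) (by decide) (by decide)
      (by decide +kernel) (by decide +kernel) (by decide +kernel) chk5 s hs
  · exact runSegm_segment datOK (by decide) (by decide) (by decide) (by decide)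
      (by decide +kernel) (by decide +kernel) (by decide +kernel) chk6 s hs
  · exact runSegm_segment datOK (by decide) (by decide) (by decide) (by decide)
      (by decide +kernel) (by decide +kernel) (by decide +kernel) chk7 s hs

theorem goodTT : ∀ s ∈ TT, GoodR cfs 168000 328000 224000 clev 5489559354084 s := by
  rintro s (hs | hs | hs | hs)
  · exact runSegm_segment datOK (by decide) (by decide) (by decide) (by decide)
      (by decide +kernel) (by decide +kernel) (by decide +kernel) chk8 s hs
  · exact runSegm_segment datOK (by decide) (by decide) (by decide) (by decide)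
      (by decide +kernel) (by decide +kernel) (by decide +kernel) chk9 s hs
  · exact runSegm_segment datOK (by decide) (by decide) (by decide) (by decide)
      (by decide +kernel) (by decide +kernel) (by decide +kernel) chk10 s hs
  · exact runSegm_segment datOK (by decide) (by decide) (by decide) (by decide)
      (by decide +kernel) (by decide +kernel) (by decide +kernel) chk11 s hs

noncomputable def cert : Cert 384000 (2 * 168000) (2 * 328000) (2 * 224000) 44 (((5489559354084 : ℤ) : ℝ) * cu) SS TT :=
  mkCert cfs clev cdeg 384000 168000 328000 224000 44 5489559354084 SS TT (by decide +kernel) (by decide +kernel)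
    (by decide +kernel) (by decide +kernel) (by decide +kernel) goodSS goodTT

theorem totL_val : totL cdeg clev = -1723423379991074000 := by decide +kernel

theorem cert_total : cert.total = ((-1723423379991074000 : ℤ) : ℝ) / 2 * cu := by
  rw [← totL_val]
  exact mkCert_total _ _ _ _ _ _ _ _ _ _ _ _ _ _ _ _ _ _

theorem archUpper : ArchUpper 384000 336000 656000 448000 (((5489559354084 : ℤ) : ℝ) * cu) (((-1723423379991074000 : ℤ) : ℝ) / 2 * cu) := by
  have h := arch_upper cert funS funT SS_bdd TT_bdd
  rw [cert_total] at h
  exact h

end Vale.Agent.P021.R2.H626
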