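import Vale.Agent.P021.R2.H626.Dat

set_option maxRecDepth 100000
set_option linter.all false

namespace Vale.Agent.P021.R2.H626

open Vale.Agent.P021.R2.H332

def part0_0 : List ℕ :=
  [235, 565, 730, 894]

theorem chk0_0 :
    runSegm rts 168000 328000 224000 pk bnds ones 0 (3072, 0) (2954, 131) 0 part0_0 = true := by
  decide +kernel

def part0_1 : List ℕ :=
  [951, 980, 994, 1008]

theorem chk0_1 :
    runSegm rts 168000 328000 224000 pk bnds ones 0 (3072, 0) (2954, 131) 894 part0_1 = true := by
  decide +kernel

def part0_2 : List ℕ :=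
  [1024]

theorem chk0_2 :
    runSegm rts 168000 328000 224000 pk bnds ones 0 (3072, 0) (2954, 131) 1008 part0_2 = true := by
  decide +kernel

def part1_0 : List ℕ :=
  [24, 47, 91, 111]

theorem chk1_0 :
    runSegm rts 168000 328000 224000 pk bnds ones 0 (2954, 131) (2902, 144) 0 part1_0 = true := by
  decide +kernel

def part1_1 : List ℕ :=
  [131, 169, 187, 204]

theorem chk1_1 :
    runSegm rts 168000 328000 224000 pk bnds ones 0 (2954, 131) (2902, 144) 111 part1_1 = true := by
  decide +kernel

def part1_2 : List ℕ :=
  [238, 254, 270, 302]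

theorem chk1_2 :
    runSegm rts 168000 328000 224000 pk bnds ones 0 (2954, 131) (2902, 144) 204 part1_2 = true := by
  decide +kernel

def part1_3 : List ℕ :=
  [317, 332, 361, 376]

theorem chk1_3 :
    runSegm rts 168000 328000 224000 pk bnds ones 0 (2954, 131) (2902, 144) 302 part1_3 = true := by
  decide +kernel

def part1_4 : List ℕ :=
  [390, 418, 432, 446]

theorem chk1_4 :
    runSegm rts 168000 328000 224000 pk bnds ones 0 (2954, 131) (2902, 144) 376 part1_4 = true := by
  decide +kernel

def part1_5 : List ℕ :=
  [460, 473, 487, 500]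

theorem chk1_5 :
    runSegm rts 168000 328000 224000 pk bnds ones 0 (2954, 131) (2902, 144) 446 part1_5 = true := by
  decide +kernel

def part1_6 : List ℕ :=
  [526, 539, 552, 577]

theorem chk1_6 :
    runSegm rts 168000 328000 224000 pk bnds ones 0 (2954, 131) (2902, 144) 500 part1_6 = true := by
  decide +kernel

def part1_7 : List ℕ :=
  [590, 602, 615, 627]

theorem chk1_7 :
    runSegm rts 168000 328000 224000 pk bnds ones 0 (2954, 131) (2902, 144) 577 part1_7 = true := by
  decide +kernel

def part1_8 : List ℕ :=
  [640, 652, 676, 689]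

theorem chk1_8 :
    runSegm rts 168000 328000 224000 pk bnds ones 0 (2954, 131) (2902, 144) 627 part1_8 = true := by
  decide +kernel

def part1_9 : List ℕ :=
  [701, 713, 725, 748]

theorem chk1_9 :
    runSegm rts 168000 328000 224000 pk bnds ones 0 (2954, 131) (2902, 144) 689 part1_9 = true := by
  decide +kernel

def part1_10 : List ℕ :=
  [760, 772, 796, 808]

theorem chk1_10 :
    runSegm rts 168000 328000 224000 pk bnds ones 0 (2954, 131) (2902, 144) 748 part1_10 = true := by
  decide +kernel

end Vale.Agent.P021.R2.H626
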