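import Vale.Agent.P021.R2.H626.Dat

set_option maxRecDepth 100000
set_option linter.all false

namespace Vale.Agent.P021.R2.H626

open Vale.Agent.P021.R2.H332

def part7_19 : List ℕ :=
  [279, 284, 286, 287]

theorem chk7_19 :
    runSegm rts 168000 328000 224000 pk bnds ones 0 (2662, 0) (2048, 0) 278 part7_19 = true := by
  decide +kernel

def part7_20 : List ℕ :=
  [290, 293, 296, 299]

theorem chk7_20 :
    runSegm rts 168000 328000 224000 pk bnds ones 0 (2662, 0) (2048, 0) 287 part7_20 = true := by
  decide +kernel

def part7_21 : List ℕ :=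
  [301, 302, 305, 308]

theorem chk7_21 :
    runSegm rts 168000 328000 224000 pk bnds ones 0 (2662, 0) (2048, 0) 299 part7_21 = true := by
  decide +kernel

def part7_22 : List ℕ :=
  [311, 313, 319, 322]

theorem chk7_22 :
    runSegm rts 168000 328000 224000 pk bnds ones 0 (2662, 0) (2048, 0) 308 part7_22 = true := by
  decide +kernel

def part7_23 : List ℕ :=
  [325, 330, 333, 335]

theorem chk7_23 :
    runSegm rts 168000 328000 224000 pk bnds ones 0 (2662, 0) (2048, 0) 322 part7_23 = true := by
  decide +kernel

def part7_24 : List ℕ :=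
  [336, 341, 343, 344]

theorem chk7_24 :
    runSegm rts 168000 328000 224000 pk bnds ones 0 (2662, 0) (2048, 0) 335 part7_24 = true := by
  decide +kernel

def part7_25 : List ℕ :=
  [347, 353, 355, 356]

theorem chk7_25 :
    runSegm rts 168000 328000 224000 pk bnds ones 0 (2662, 0) (2048, 0) 344 part7_25 = true := by
  decide +kernel

def part7_26 : List ℕ :=
  [358, 361, 364, 367]

theorem chk7_26 :
    runSegm rts 168000 328000 224000 pk bnds ones 0 (2662, 0) (2048, 0) 356 part7_26 = true := by
  decide +kernel

def part7_27 : List ℕ :=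
  [369, 374, 376, 377]

theorem chk7_27 :
    runSegm rts 168000 328000 224000 pk bnds ones 0 (2662, 0) (2048, 0) 367 part7_27 = true := by
  decide +kernel

def part7_28 : List ℕ :=
  [380, 383, 385, 388]

theorem chk7_28 :
    runSegm rts 168000 328000 224000 pk bnds ones 0 (2662, 0) (2048, 0) 377 part7_28 = true := by
  decide +kernel

def part7_29 : List ℕ :=
  [391, 394, 396, 398]

theorem chk7_29 :
    runSegm rts 168000 328000 224000 pk bnds ones 0 (2662, 0) (2048, 0) 388 part7_29 = true := by
  decide +kernel

def part7_30 : List ℕ :=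
  [399, 402, 405, 407]

theorem chk7_30 :
    runSegm rts 168000 328000 224000 pk bnds ones 0 (2662, 0) (2048, 0) 398 part7_30 = true := by
  decide +kernel

end Vale.Agent.P021.R2.H626
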