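import Vale.Agent.P021.R2.H626.Dat

set_option maxRecDepth 100000
set_option linter.all false

namespace Vale.Agent.P021.R2.H626

open Vale.Agent.P021.R2.H332

def part7_31 : List ℕ :=
  [410, 412, 415, 418]

theorem chk7_31 :
    runSegm rts 168000 328000 224000 pk bnds ones 0 (2662, 0) (2048, 0) 407 part7_31 = true := by
  decide +kernel

def part7_32 : List ℕ :=
  [421, 423, 428, 431]

theorem chk7_32 :
    runSegm rts 168000 328000 224000 pk bnds ones 0 (2662, 0) (2048, 0) 418 part7_32 = true := by
  decide +kernel

def part7_33 : List ℕ :=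
  [433, 436, 439, 441]

theorem chk7_33 :
    runSegm rts 168000 328000 224000 pk bnds ones 0 (2662, 0) (2048, 0) 431 part7_33 = true := by
  decide +kernel

def part7_34 : List ℕ :=
  [442, 444, 449, 452]

theorem chk7_34 :
    runSegm rts 168000 328000 224000 pk bnds ones 0 (2662, 0) (2048, 0) 441 part7_34 = true := by
  decide +kernel

def part7_35 : List ℕ :=
  [454, 457, 460, 462]

theorem chk7_35 :
    runSegm rts 168000 328000 224000 pk bnds ones 0 (2662, 0) (2048, 0) 452 part7_35 = true := by
  decide +kernel

def part7_36 : List ℕ :=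
  [463, 465, 468, 470]

theorem chk7_36 :
    runSegm rts 168000 328000 224000 pk bnds ones 0 (2662, 0) (2048, 0) 462 part7_36 = true := by
  decide +kernel

def part7_37 : List ℕ :=
  [473, 475, 478, 480]

theorem chk7_37 :
    runSegm rts 168000 328000 224000 pk bnds ones 0 (2662, 0) (2048, 0) 470 part7_37 = true := by
  decide +kernel

def part7_38 : List ℕ :=
  [482, 483, 485, 487]

theorem chk7_38 :
    runSegm rts 168000 328000 224000 pk bnds ones 0 (2662, 0) (2048, 0) 480 part7_38 = true := by
  decide +kernel

def part7_39 : List ℕ :=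
  [488, 491, 493, 494]

theorem chk7_39 :
    runSegm rts 168000 328000 224000 pk bnds ones 0 (2662, 0) (2048, 0) 487 part7_39 = true := by
  decide +kernel

def part7_40 : List ℕ :=
  [496, 501, 503, 504]

theorem chk7_40 :
    runSegm rts 168000 328000 224000 pk bnds ones 0 (2662, 0) (2048, 0) 494 part7_40 = true := by
  decide +kernel

def part7_41 : List ℕ :=
  [506, 511, 513, 514]

theorem chk7_41 :
    runSegm rts 168000 328000 224000 pk bnds ones 0 (2662, 0) (2048, 0) 504 part7_41 = true := by
  decide +kernel

def part7_42 : List ℕ :=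
  [516, 519, 521, 523]

theorem chk7_42 :
    runSegm rts 168000 328000 224000 pk bnds ones 0 (2662, 0) (2048, 0) 514 part7_42 = true := by
  decide +kernel

def part7_43 : List ℕ :=
  [524, 526, 529, 531]

theorem chk7_43 :
    runSegm rts 168000 328000 224000 pk bnds ones 0 (2662, 0) (2048, 0) 523 part7_43 = true := by
  decide +kernel

end Vale.Agent.P021.R2.H626
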