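import Vale.Agent.P021.R2.H626.Dat

set_option maxRecDepth 100000
set_option linter.all false

namespace Vale.Agent.P021.R2.H626

open Vale.Agent.P021.R2.H332

def part7_44 : List ℕ :=
  [534, 536, 539, 541]

theorem chk7_44 :
    runSegm rts 168000 328000 224000 pk bnds ones 0 (2662, 0) (2048, 0) 531 part7_44 = true := by
  decide +kernel

def part7_45 : List ℕ :=
  [544, 546, 548, 549]

theorem chk7_45 :
    runSegm rts 168000 328000 224000 pk bnds ones 0 (2662, 0) (2048, 0) 541 part7_45 = true := by
  decide +kernel

def part7_46 : List ℕ :=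
  [551, 554, 556, 559]

theorem chk7_46 :
    runSegm rts 168000 328000 224000 pk bnds ones 0 (2662, 0) (2048, 0) 549 part7_46 = true := by
  decide +kernel

def part7_47 : List ℕ :=
  [561, 564, 566, 569]

theorem chk7_47 :
    runSegm rts 168000 328000 224000 pk bnds ones 0 (2662, 0) (2048, 0) 559 part7_47 = true := by
  decide +kernel

def part7_48 : List ℕ :=
  [571, 574, 576, 579]

theorem chk7_48 :
    runSegm rts 168000 328000 224000 pk bnds ones 0 (2662, 0) (2048, 0) 569 part7_48 = true := by
  decide +kernel

def part7_49 : List ℕ :=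
  [581, 584, 586, 589]

theorem chk7_49 :
    runSegm rts 168000 328000 224000 pk bnds ones 0 (2662, 0) (2048, 0) 579 part7_49 = true := by
  decide +kernel

def part7_50 : List ℕ :=
  [591, 594, 596, 599]

theorem chk7_50 :
    runSegm rts 168000 328000 224000 pk bnds ones 0 (2662, 0) (2048, 0) 589 part7_50 = true := by
  decide +kernel

def part7_51 : List ℕ :=
  [601, 604, 606, 609]

theorem chk7_51 :
    runSegm rts 168000 328000 224000 pk bnds ones 0 (2662, 0) (2048, 0) 599 part7_51 = true := by
  decide +kernel

def part7_52 : List ℕ :=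
  [611, 613, 615, 618]

theorem chk7_52 :
    runSegm rts 168000 328000 224000 pk bnds ones 0 (2662, 0) (2048, 0) 609 part7_52 = true := by
  decide +kernel

def part7_53 : List ℕ :=
  [620, 623, 625, 628]

theorem chk7_53 :
    runSegm rts 168000 328000 224000 pk bnds ones 0 (2662, 0) (2048, 0) 618 part7_53 = true := by
  decide +kernel

def part7_54 : List ℕ :=
  [630, 633, 635, 638]

theorem chk7_54 :
    runSegm rts 168000 328000 224000 pk bnds ones 0 (2662, 0) (2048, 0) 628 part7_54 = true := by
  decide +kernel

def part7_55 : List ℕ :=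
  [640, 643, 645, 650]

theorem chk7_55 :
    runSegm rts 168000 328000 224000 pk bnds ones 0 (2662, 0) (2048, 0) 638 part7_55 = true := by
  decide +kernel

def part7_56 : List ℕ :=
  [652, 653, 655, 657]

theorem chk7_56 :
    runSegm rts 168000 328000 224000 pk bnds ones 0 (2662, 0) (2048, 0) 650 part7_56 = true := by
  decide +kernel

end Vale.Agent.P021.R2.H626
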