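import Vale.Agent.P021.R2.H626.Dat

set_option maxRecDepth 100000
set_option linter.all false

namespace Vale.Agent.P021.R2.H626

open Vale.Agent.P021.R2.H332

def part7_57 : List ℕ :=
  [658, 660, 664, 667]

theorem chk7_57 :
    runSegm rts 168000 328000 224000 pk bnds ones 0 (2662, 0) (2048, 0) 657 part7_57 = true := by
  decide +kernel

def part7_58 : List ℕ :=
  [669, 672, 674, 677]

theorem chk7_58 :
    runSegm rts 168000 328000 224000 pk bnds ones 0 (2662, 0) (2048, 0) 667 part7_58 = true := by
  decide +kernel

def part7_59 : List ℕ :=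
  [679, 682, 684, 687]

theorem chk7_59 :
    runSegm rts 168000 328000 224000 pk bnds ones 0 (2662, 0) (2048, 0) 677 part7_59 = true := by
  decide +kernel

def part7_60 : List ℕ :=
  [689, 692, 694, 697]

theorem chk7_60 :
    runSegm rts 168000 328000 224000 pk bnds ones 0 (2662, 0) (2048, 0) 687 part7_60 = true := by
  decide +kernel

def part7_61 : List ℕ :=
  [699, 702, 704, 707]

theorem chk7_61 :
    runSegm rts 168000 328000 224000 pk bnds ones 0 (2662, 0) (2048, 0) 697 part7_61 = true := by
  decide +kernel

def part7_62 : List ℕ :=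
  [709, 712, 714, 717]

theorem chk7_62 :
    runSegm rts 168000 328000 224000 pk bnds ones 0 (2662, 0) (2048, 0) 707 part7_62 = true := by
  decide +kernel

def part7_63 : List ℕ :=
  [719, 722, 724, 727]

theorem chk7_63 :
    runSegm rts 168000 328000 224000 pk bnds ones 0 (2662, 0) (2048, 0) 717 part7_63 = true := by
  decide +kernel

def part7_64 : List ℕ :=
  [729, 732, 734, 737]

theorem chk7_64 :
    runSegm rts 168000 328000 224000 pk bnds ones 0 (2662, 0) (2048, 0) 727 part7_64 = true := by
  decide +kernel

def part7_65 : List ℕ :=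
  [739, 744, 747, 749]

theorem chk7_65 :
    runSegm rts 168000 328000 224000 pk bnds ones 0 (2662, 0) (2048, 0) 737 part7_65 = true := by
  decide +kernel

def part7_66 : List ℕ :=
  [752, 755, 758, 760]

theorem chk7_66 :
    runSegm rts 168000 328000 224000 pk bnds ones 0 (2662, 0) (2048, 0) 749 part7_66 = true := by
  decide +kernel

def part7_67 : List ℕ :=
  [765, 768, 771, 774]

theorem chk7_67 :
    runSegm rts 168000 328000 224000 pk bnds ones 0 (2662, 0) (2048, 0) 760 part7_67 = true := by
  decide +kernel

def part7_68 : List ℕ :=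
  [777, 780, 782, 788]

theorem chk7_68 :
    runSegm rts 168000 328000 224000 pk bnds ones 0 (2662, 0) (2048, 0) 774 part7_68 = true := by
  decide +kernel

end Vale.Agent.P021.R2.H626
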