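import Vale.Agent.P021.R2.H626.Dat

set_option maxRecDepth 100000
set_option linter.all false

namespace Vale.Agent.P021.R2.H626

open Vale.Agent.P021.R2.H332

def part7_69 : List ℕ :=
  [791, 794, 798, 801]

theorem chk7_69 :
    runSegm rts 168000 328000 224000 pk bnds ones 0 (2662, 0) (2048, 0) 788 part7_69 = true := by
  decide +kernel

def part7_70 : List ℕ :=
  [804, 807, 811, 815]

theorem chk7_70 :
    runSegm rts 168000 328000 224000 pk bnds ones 0 (2662, 0) (2048, 0) 801 part7_70 = true := by
  decide +kernel

def part7_71 : List ℕ :=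
  [819, 823, 829, 834]

theorem chk7_71 :
    runSegm rts 168000 328000 224000 pk bnds ones 0 (2662, 0) (2048, 0) 815 part7_71 = true := by
  decide +kernel

def part7_72 : List ℕ :=
  [846, 858, 882, 929]

theorem chk7_72 :
    runSegm rts 168000 328000 224000 pk bnds ones 0 (2662, 0) (2048, 0) 834 part7_72 = true := by
  decide +kernel

def part7_73 : List ℕ :=
  [1024]

theorem chk7_73 :
    runSegm rts 168000 328000 224000 pk bnds ones 0 (2662, 0) (2048, 0) 929 part7_73 = true := by
  decide +kernel

def part8_0 : List ℕ :=
  [51, 137, 253, 370]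

theorem chk8_0 :
    runSegm rts 168000 328000 224000 pk bnds ones 5489559354084 (3277, 0) (0, 3482) 0 part8_0 = true := by
  decide +kernel

def part8_1 : List ℕ :=
  [697, 1024]

theorem chk8_1 :
    runSegm rts 168000 328000 224000 pk bnds ones 5489559354084 (3277, 0) (0, 3482) 370 part8_1 = true := by
  decide +kernel

def part9_0 : List ℕ :=
  [512, 1024]

theorem chk9_0 :
    runSegm rts 168000 328000 224000 pk bnds ones 5489559354084 (0, 3482) (-3578, 3794) 0 part9_0 = true := by
  decide +kernel

def part10_0 : List ℕ :=
  [284, 426, 497, 533]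

theorem chk10_0 :
    runSegm rts 168000 328000 224000 pk bnds ones 5489559354084 (-3578, 3794) (-5378, 1248) 0 part10_0 = true := by
  decide +kernel

def part10_1 : List ℕ :=
  [551, 569, 583, 598]

theorem chk10_1 :
    runSegm rts 168000 328000 224000 pk bnds ones 5489559354084 (-3578, 3794) (-5378, 1248) 533 part10_1 = true := by
  decide +kernel

def part10_2 : List ℕ :=
  [609, 621, 641, 650]

theorem chk10_2 :
    runSegm rts 168000 328000 224000 pk bnds ones 5489559354084 (-3578, 3794) (-5378, 1248) 598 part10_2 = true := by
  decide +kernel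

def part10_3 : List ℕ :=
  [659, 676, 684, 692]

theorem chk10_3 :
    runSegm rts 168000 328000 224000 pk bnds ones 5489559354084 (-3578, 3794) (-5378, 1248) 650 part10_3 = true := by
  decide +kernel

def part10_4 : List ℕ :=
  [708, 715, 722, 736]

theorem chk10_4 :
    runSegm rts 168000 328000 224000 pk bnds ones 5489559354084 (-3578, 3794) (-5378, 1248) 692 part10_4 = true := by
  decide +kernel

def part10_5 : List ℕ :=
  [743, 750, 763, 769]

theorem chk10_5 :
    runSegm rts 168000 328000 224000 pk bnds ones 5489559354084 (-3578, 3794) (-5378, 1248) 736 part10_5 = true := by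
  decide +kernel

def part10_6 : List ℕ :=
  [776, 788, 794, 801]

theorem chk10_6 :
    runSegm rts 168000 328000 224000 pk bnds ones 5489559354084 (-3578, 3794) (-5378, 1248) 769 part10_6 = true := by
  decide +kernel

end Vale.Agent.P021.R2.H626
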