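import Vale.Agent.P021.R2.H626.Dat

set_option maxRecDepth 100000
set_option linter.all false

namespace Vale.Agent.P021.R2.H626

open Vale.Agent.P021.R2.H332

def part10_7 : List ℕ :=
  [813, 818, 824, 836]

theorem chk10_7 :
    runSegm rts 168000 328000 224000 pk bnds ones 5489559354084 (-3578, 3794) (-5378, 1248) 801 part10_7 = true := by
  decide +kernel

def part10_8 : List ℕ :=
  [841, 847, 853, 859]

theorem chk10_8 :
    runSegm rts 168000 328000 224000 pk bnds ones 5489559354084 (-3578, 3794) (-5378, 1248) 836 part10_8 = true := by
  decide +kernel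

def part10_9 : List ℕ :=
  [864, 870, 881, 891]

theorem chk10_9 :
    runSegm rts 168000 328000 224000 pk bnds ones 5489559354084 (-3578, 3794) (-5378, 1248) 859 part10_9 = true := by
  decide +kernel

def part10_10 : List ℕ :=
  [896, 902, 913, 918]

theorem chk10_10 :
    runSegm rts 168000 328000 224000 pk bnds ones 5489559354084 (-3578, 3794) (-5378, 1248) 891 part10_10 = true := by
  decide +kernel

def part10_11 : List ℕ :=
  [923, 934, 939, 944]

theorem chk10_11 :
    runSegm rts 168000 328000 224000 pk bnds ones 5489559354084 (-3578, 3794) (-5378, 1248) 918 part10_11 = true := by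
  decide +kernel

def part10_12 : List ℕ :=
  [955, 960, 965, 975]

theorem chk10_12 :
    runSegm rts 168000 328000 224000 pk bnds ones 5489559354084 (-3578, 3794) (-5378, 1248) 944 part10_12 = true := by
  decide +kernel

def part10_13 : List ℕ :=
  [980, 985, 995, 1000]

theorem chk10_13 :
    runSegm rts 168000 328000 224000 pk bnds ones 5489559354084 (-3578, 3794) (-5378, 1248) 975 part10_13 = true := by
  decide +kernel

def part10_14 : List ℕ :=
  [1005, 1015, 1024]

theorem chk10_14 :
    runSegm rts 168000 328000 224000 pk bnds ones 5489559354084 (-3578, 3794) (-5378, 1248) 1000 part10_14 = true := by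
  decide +kernel

def part11_0 : List ℕ :=
  [24, 36, 49, 73]

theorem chk11_0 :
    runSegm rts 168000 328000 224000 pk bnds ones 5489559354084 (-5378, 1248) (-5640, 0) 0 part11_0 = true := by
  decide +kernel

def part11_1 : List ℕ :=
  [85, 97, 121, 133]

theorem chk11_1 :
    runSegm rts 168000 328000 224000 pk bnds ones 5489559354084 (-5378, 1248) (-5640, 0) 73 part11_1 = true := by
  decide +kernel

def part11_2 : List ℕ :=
  [145, 169, 180, 192]

theorem chk11_2 :
    runSegm rts 168000 328000 224000 pk bnds ones 5489559354084 (-5378, 1248) (-5640, 0) 133 part11_2 = true := by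
  decide +kernel

def part11_3 : List ℕ :=
  [215, 226, 238, 261]

theorem chk11_3 :
    runSegm rts 168000 328000 224000 pk bnds ones 5489559354084 (-5378, 1248) (-5640, 0) 192 part11_3 = true := by
  decide +kernel

def part11_4 : List ℕ :=
  [272, 284, 307, 318]

theorem chk11_4 :
    runSegm rts 168000 328000 224000 pk bnds ones 5489559354084 (-5378, 1248) (-5640, 0) 261 part11_4 = true := by
  decide +kernel

end Vale.Agent.P021.R2.H626
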