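import Vale.Agent.P021.R2.H626.Dat

set_option maxRecDepth 100000
set_option linter.all false

namespace Vale.Agent.P021.R2.H626

open Vale.Agent.P021.R2.H332

def part11_5 : List ℕ :=
  [329, 352, 363, 374]

theorem chk11_5 :
    runSegm rts 168000 328000 224000 pk bnds ones 5489559354084 (-5378, 1248) (-5640, 0) 318 part11_5 = true := by
  decide +kernel

def part11_6 : List ℕ :=
  [396, 407, 418, 440]

theorem chk11_6 :
    runSegm rts 168000 328000 224000 pk bnds ones 5489559354084 (-5378, 1248) (-5640, 0) 374 part11_6 = true := by
  decide +kernel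

def part11_7 : List ℕ :=
  [451, 462, 484, 495]

theorem chk11_7 :
    runSegm rts 168000 328000 224000 pk bnds ones 5489559354084 (-5378, 1248) (-5640, 0) 440 part11_7 = true := by
  decide +kernel

def part11_8 : List ℕ :=
  [506, 528, 549, 571]

theorem chk11_8 :
    runSegm rts 168000 328000 224000 pk bnds ones 5489559354084 (-5378, 1248) (-5640, 0) 495 part11_8 = true := by
  decide +kernel

def part11_9 : List ℕ :=
  [582, 593, 614, 625]

theorem chk11_9 :
    runSegm rts 168000 328000 224000 pk bnds ones 5489559354084 (-5378, 1248) (-5640, 0) 571 part11_9 = true := by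
  decide +kernel

def part11_10 : List ℕ :=
  [636, 657, 668, 679]

theorem chk11_10 :
    runSegm rts 168000 328000 224000 pk bnds ones 5489559354084 (-5378, 1248) (-5640, 0) 625 part11_10 = true := by
  decide +kernel

def part11_11 : List ℕ :=
  [700, 711, 722, 743]

theorem chk11_11 :
    runSegm rts 168000 328000 224000 pk bnds ones 5489559354084 (-5378, 1248) (-5640, 0) 679 part11_11 = true := by
  decide +kernel

def part11_12 : List ℕ :=
  [754, 765, 786, 797]

theorem chk11_12 :
    runSegm rts 168000 328000 224000 pk bnds ones 5489559354084 (-5378, 1248) (-5640, 0) 743 part11_12 = true := by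
  decide +kernel

def part11_13 : List ℕ :=
  [808, 830, 840, 851]

theorem chk11_13 :
    runSegm rts 168000 328000 224000 pk bnds ones 5489559354084 (-5378, 1248) (-5640, 0) 797 part11_13 = true := by
  decide +kernel

def part11_14 : List ℕ :=
  [873, 884, 895, 916]

theorem chk11_14 :
    runSegm rts 168000 328000 224000 pk bnds ones 5489559354084 (-5378, 1248) (-5640, 0) 851 part11_14 = true := by
  decide +kernel

def part11_15 : List ℕ :=
  [927, 938, 960, 971]

theorem chk11_15 :
    runSegm rts 168000 328000 224000 pk bnds ones 5489559354084 (-5378, 1248) (-5640, 0) 916 part11_15 = true := by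
  decide +kernel

def part11_16 : List ℕ :=
  [982, 993, 1004, 1024]

theorem chk11_16 :
    runSegm rts 168000 328000 224000 pk bnds ones 5489559354084 (-5378, 1248) (-5640, 0) 971 part11_16 = true := by
  decide +kernel

end Vale.Agent.P021.R2.H626
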