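import Vale.Agent.P021.R2.H626.Dat

set_option maxRecDepth 100000
set_option linter.all false

namespace Vale.Agent.P021.R2.H626

open Vale.Agent.P021.R2.H332

def part1_11 : List ℕ :=
  [819, 842, 854, 865]

theorem chk1_11 :
    runSegm rts 168000 328000 224000 pk bnds ones 0 (2954, 131) (2902, 144) 808 part1_11 = true := by
  decide +kernel

def part1_12 : List ℕ :=
  [888, 900, 911, 934]

theorem chk1_12 :
    runSegm rts 168000 328000 224000 pk bnds ones 0 (2954, 131) (2902, 144) 865 part1_12 = true := by
  decide +kernel

def part1_13 : List ℕ :=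
  [957, 979, 991, 1002]

theorem chk1_13 :
    runSegm rts 168000 328000 224000 pk bnds ones 0 (2954, 131) (2902, 144) 934 part1_13 = true := by
  decide +kernel

def part1_14 : List ℕ :=
  [1024]

theorem chk1_14 :
    runSegm rts 168000 328000 224000 pk bnds ones 0 (2954, 131) (2902, 144) 1002 part1_14 = true := by
  decide +kernel

def part2_0 : List ℕ :=
  [13, 26, 53, 67]

theorem chk2_0 :
    runSegm rts 168000 328000 224000 pk bnds ones 0 (2902, 144) (2858, 143) 0 part2_0 = true := by
  decide +kernel

def part2_1 : List ℕ :=
  [80, 106, 120, 133]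

theorem chk2_1 :
    runSegm rts 168000 328000 224000 pk bnds ones 0 (2902, 144) (2858, 143) 67 part2_1 = true := by
  decide +kernel

def part2_2 : List ℕ :=
  [159, 173, 186, 199]

theorem chk2_2 :
    runSegm rts 168000 328000 224000 pk bnds ones 0 (2902, 144) (2858, 143) 133 part2_2 = true := by
  decide +kernel

def part2_3 : List ℕ :=
  [212, 225, 238, 264]

theorem chk2_3 :
    runSegm rts 168000 328000 224000 pk bnds ones 0 (2902, 144) (2858, 143) 199 part2_3 = true := by
  decide +kernel

def part2_4 : List ℕ :=
  [277, 290, 316, 329]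

theorem chk2_4 :
    runSegm rts 168000 328000 224000 pk bnds ones 0 (2902, 144) (2858, 143) 264 part2_4 = true := by
  decide +kernel

def part2_5 : List ℕ :=
  [342, 355, 368, 381]

theorem chk2_5 :
    runSegm rts 168000 328000 224000 pk bnds ones 0 (2902, 144) (2858, 143) 329 part2_5 = true := by
  decide +kernel

def part2_6 : List ℕ :=
  [393, 406, 419, 432]

theorem chk2_6 :
    runSegm rts 168000 328000 224000 pk bnds ones 0 (2902, 144) (2858, 143) 381 part2_6 = true := by
  decide +kernel

def part2_7 : List ℕ :=
  [444, 457, 470, 483]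

theorem chk2_7 :
    runSegm rts 168000 328000 224000 pk bnds ones 0 (2902, 144) (2858, 143) 432 part2_7 = true := by
  decide +kernel

def part2_8 : List ℕ :=
  [495, 520, 533, 546]

theorem chk2_8 :
    runSegm rts 168000 328000 224000 pk bnds ones 0 (2902, 144) (2858, 143) 483 part2_8 = true := by
  decide +kernel

end Vale.Agent.P021.R2.H626
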