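import Vale.Agent.P021.R2.H626.Dat

set_option maxRecDepth 100000
set_option linter.all false

namespace Vale.Agent.P021.R2.H626

open Vale.Agent.P021.R2.H332

def part2_9 : List ℕ :=
  [571, 584, 596, 621]

theorem chk2_9 :
    runSegm rts 168000 328000 224000 pk bnds ones 0 (2902, 144) (2858, 143) 546 part2_9 = true := by
  decide +kernel

def part2_10 : List ℕ :=
  [634, 647, 672, 685]

theorem chk2_10 :
    runSegm rts 168000 328000 224000 pk bnds ones 0 (2902, 144) (2858, 143) 621 part2_10 = true := by
  decide +kernel

def part2_11 : List ℕ :=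
  [697, 710, 722, 735]

theorem chk2_11 :
    runSegm rts 168000 328000 224000 pk bnds ones 0 (2902, 144) (2858, 143) 685 part2_11 = true := by
  decide +kernel

def part2_12 : List ℕ :=
  [747, 772, 785, 797]

theorem chk2_12 :
    runSegm rts 168000 328000 224000 pk bnds ones 0 (2902, 144) (2858, 143) 735 part2_12 = true := by
  decide +kernel

def part2_13 : List ℕ :=
  [810, 823, 836, 848]

theorem chk2_13 :
    runSegm rts 168000 328000 224000 pk bnds ones 0 (2902, 144) (2858, 143) 797 part2_13 = true := by
  decide +kernel

def part2_14 : List ℕ :=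
  [873, 886, 898, 911]

theorem chk2_14 :
    runSegm rts 168000 328000 224000 pk bnds ones 0 (2902, 144) (2858, 143) 848 part2_14 = true := by
  decide +kernel

def part2_15 : List ℕ :=
  [923, 948, 961, 973]

theorem chk2_15 :
    runSegm rts 168000 328000 224000 pk bnds ones 0 (2902, 144) (2858, 143) 911 part2_15 = true := by
  decide +kernel

def part2_16 : List ℕ :=
  [986, 999, 1012, 1024]

theorem chk2_16 :
    runSegm rts 168000 328000 224000 pk bnds ones 0 (2902, 144) (2858, 143) 973 part2_16 = true := by
  decide +kernel

def part3_0 : List ℕ :=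
  [25, 38, 50, 63]

theorem chk3_0 :
    runSegm rts 168000 328000 224000 pk bnds ones 0 (2858, 143) (2815, 133) 0 part3_0 = true := by
  decide +kernel

def part3_1 : List ℕ :=
  [75, 88, 101, 114]

theorem chk3_1 :
    runSegm rts 168000 328000 224000 pk bnds ones 0 (2858, 143) (2815, 133) 63 part3_1 = true := by
  decide +kernel

def part3_2 : List ℕ :=
  [126, 139, 151, 176]

theorem chk3_2 :
    runSegm rts 168000 328000 224000 pk bnds ones 0 (2858, 143) (2815, 133) 114 part3_2 = true := by
  decide +kernel

def part3_3 : List ℕ :=
  [189, 202, 227, 240]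

theorem chk3_3 :
    runSegm rts 168000 328000 224000 pk bnds ones 0 (2858, 143) (2815, 133) 176 part3_3 = true := by
  decide +kernel

def part3_4 : List ℕ :=
  [252, 277, 290, 303]

theorem chk3_4 :
    runSegm rts 168000 328000 224000 pk bnds ones 0 (2858, 143) (2815, 133) 240 part3_4 = true := by
  decide +kernel

end Vale.Agent.P021.R2.H626
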