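import Vale.Agent.P021.R2.H626.Dat

set_option maxRecDepth 100000
set_option linter.all false

namespace Vale.Agent.P021.R2.H626

open Vale.Agent.P021.R2.H332

def part3_5 : List ℕ :=
  [316, 328, 341, 353]

theorem chk3_5 :
    runSegm rts 168000 328000 224000 pk bnds ones 0 (2858, 143) (2815, 133) 303 part3_5 = true := by
  decide +kernel

def part3_6 : List ℕ :=
  [379, 392, 404, 417]

theorem chk3_6 :
    runSegm rts 168000 328000 224000 pk bnds ones 0 (2858, 143) (2815, 133) 353 part3_6 = true := by
  decide +kernel

def part3_7 : List ℕ :=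
  [429, 442, 455, 480]

theorem chk3_7 :
    runSegm rts 168000 328000 224000 pk bnds ones 0 (2858, 143) (2815, 133) 417 part3_7 = true := by
  decide +kernel

def part3_8 : List ℕ :=
  [493, 505, 531, 544]

theorem chk3_8 :
    runSegm rts 168000 328000 224000 pk bnds ones 0 (2858, 143) (2815, 133) 480 part3_8 = true := by
  decide +kernel

def part3_9 : List ℕ :=
  [556, 582, 595, 607]

theorem chk3_9 :
    runSegm rts 168000 328000 224000 pk bnds ones 0 (2858, 143) (2815, 133) 544 part3_9 = true := by
  decide +kernel

def part3_10 : List ℕ :=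
  [633, 646, 659, 684]

theorem chk3_10 :
    runSegm rts 168000 328000 224000 pk bnds ones 0 (2858, 143) (2815, 133) 607 part3_10 = true := by
  decide +kernel

def part3_11 : List ℕ :=
  [697, 710, 736, 749]

theorem chk3_11 :
    runSegm rts 168000 328000 224000 pk bnds ones 0 (2858, 143) (2815, 133) 684 part3_11 = true := by
  decide +kernel

def part3_12 : List ℕ :=
  [762, 787, 800, 813]

theorem chk3_12 :
    runSegm rts 168000 328000 224000 pk bnds ones 0 (2858, 143) (2815, 133) 749 part3_12 = true := by
  decide +kernel

def part3_13 : List ℕ :=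
  [826, 839, 853, 866]

theorem chk3_13 :
    runSegm rts 168000 328000 224000 pk bnds ones 0 (2858, 143) (2815, 133) 813 part3_13 = true := by
  decide +kernel

def part3_14 : List ℕ :=
  [892, 905, 918, 944]

theorem chk3_14 :
    runSegm rts 168000 328000 224000 pk bnds ones 0 (2858, 143) (2815, 133) 866 part3_14 = true := by
  decide +kernel

def part3_15 : List ℕ :=
  [958, 971, 997, 1011]

theorem chk3_15 :
    runSegm rts 168000 328000 224000 pk bnds ones 0 (2858, 143) (2815, 133) 944 part3_15 = true := by
  decide +kernel

def part3_16 : List ℕ :=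
  [1024]

theorem chk3_16 :
    runSegm rts 168000 328000 224000 pk bnds ones 0 (2858, 143) (2815, 133) 1011 part3_16 = true := by
  decide +kernel

def part4_0 : List ℕ :=
  [24, 36, 48, 72]

theorem chk4_0 :
    runSegm rts 168000 328000 224000 pk bnds ones 0 (2815, 133) (2771, 113) 0 part4_0 = true := by
  decide +kernel

def part4_1 : List ℕ :=
  [84, 96, 109, 121]

theorem chk4_1 :
    runSegm rts 168000 328000 224000 pk bnds ones 0 (2815, 133) (2771, 113) 72 part4_1 = true := by
  decide +kernel

end Vale.Agent.P021.R2.H626
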