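import Vale.Agent.P021.R2.H626.Dat

set_option maxRecDepth 100000
set_option linter.all false

namespace Vale.Agent.P021.R2.H626

open Vale.Agent.P021.R2.H332

def part4_2 : List ℕ :=
  [133, 145, 170, 182]

theorem chk4_2 :
    runSegm rts 168000 328000 224000 pk bnds ones 0 (2815, 133) (2771, 113) 121 part4_2 = true := by
  decide +kernel

def part4_3 : List ℕ :=
  [194, 219, 232, 244]

theorem chk4_3 :
    runSegm rts 168000 328000 224000 pk bnds ones 0 (2815, 133) (2771, 113) 182 part4_3 = true := by
  decide +kernel

def part4_4 : List ℕ :=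
  [268, 281, 293, 318]

theorem chk4_4 :
    runSegm rts 168000 328000 224000 pk bnds ones 0 (2815, 133) (2771, 113) 244 part4_4 = true := by
  decide +kernel

def part4_5 : List ℕ :=
  [331, 343, 356, 368]

theorem chk4_5 :
    runSegm rts 168000 328000 224000 pk bnds ones 0 (2815, 133) (2771, 113) 318 part4_5 = true := by
  decide +kernel

def part4_6 : List ℕ :=
  [381, 393, 418, 443]

theorem chk4_6 :
    runSegm rts 168000 328000 224000 pk bnds ones 0 (2815, 133) (2771, 113) 368 part4_6 = true := by
  decide +kernel

def part4_7 : List ℕ :=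
  [468, 481, 494, 519]

theorem chk4_7 :
    runSegm rts 168000 328000 224000 pk bnds ones 0 (2815, 133) (2771, 113) 443 part4_7 = true := by
  decide +kernel

def part4_8 : List ℕ :=
  [532, 545, 570, 583]

theorem chk4_8 :
    runSegm rts 168000 328000 224000 pk bnds ones 0 (2815, 133) (2771, 113) 519 part4_8 = true := by
  decide +kernel

def part4_9 : List ℕ :=
  [596, 622, 635, 648]

theorem chk4_9 :
    runSegm rts 168000 328000 224000 pk bnds ones 0 (2815, 133) (2771, 113) 583 part4_9 = true := by
  decide +kernel

def part4_10 : List ℕ :=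
  [674, 687, 700, 726]

theorem chk4_10 :
    runSegm rts 168000 328000 224000 pk bnds ones 0 (2815, 133) (2771, 113) 648 part4_10 = true := by
  decide +kernel

def part4_11 : List ℕ :=
  [740, 753, 779, 793]

theorem chk4_11 :
    runSegm rts 168000 328000 224000 pk bnds ones 0 (2815, 133) (2771, 113) 726 part4_11 = true := by
  decide +kernel

def part4_12 : List ℕ :=
  [806, 833, 847, 860]

theorem chk4_12 :
    runSegm rts 168000 328000 224000 pk bnds ones 0 (2815, 133) (2771, 113) 793 part4_12 = true := by
  decide +kernel

def part4_13 : List ℕ :=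
  [874, 887, 914, 928]

theorem chk4_13 :
    runSegm rts 168000 328000 224000 pk bnds ones 0 (2815, 133) (2771, 113) 860 part4_13 = true := by
  decide +kernel

end Vale.Agent.P021.R2.H626
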