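import Vale.Agent.P021.R2.H626.Dat

set_option maxRecDepth 100000
set_option linter.all false

namespace Vale.Agent.P021.R2.H626

open Vale.Agent.P021.R2.H332

def part4_14 : List ℕ :=
  [941, 969, 996, 1024]

theorem chk4_14 :
    runSegm rts 168000 328000 224000 pk bnds ones 0 (2815, 133) (2771, 113) 928 part4_14 = true := by
  decide +kernel

def part5_0 : List ℕ :=
  [22, 45, 68, 91]

theorem chk5_0 :
    runSegm rts 168000 328000 224000 pk bnds ones 0 (2771, 113) (2725, 77) 0 part5_0 = true := by
  decide +kernel

def part5_1 : List ℕ :=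
  [103, 114, 137, 149]

theorem chk5_1 :
    runSegm rts 168000 328000 224000 pk bnds ones 0 (2771, 113) (2725, 77) 91 part5_1 = true := by
  decide +kernel

def part5_2 : List ℕ :=
  [161, 173, 184, 196]

theorem chk5_2 :
    runSegm rts 168000 328000 224000 pk bnds ones 0 (2771, 113) (2725, 77) 149 part5_2 = true := by
  decide +kernel

def part5_3 : List ℕ :=
  [208, 232, 244, 255]

theorem chk5_3 :
    runSegm rts 168000 328000 224000 pk bnds ones 0 (2771, 113) (2725, 77) 196 part5_3 = true := by
  decide +kernel

def part5_4 : List ℕ :=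
  [279, 291, 303, 316]

theorem chk5_4 :
    runSegm rts 168000 328000 224000 pk bnds ones 0 (2771, 113) (2725, 77) 255 part5_4 = true := by
  decide +kernel

def part5_5 : List ℕ :=
  [328, 340, 352, 377]

theorem chk5_5 :
    runSegm rts 168000 328000 224000 pk bnds ones 0 (2771, 113) (2725, 77) 316 part5_5 = true := by
  decide +kernel

def part5_6 : List ℕ :=
  [389, 401, 426, 439]

theorem chk5_6 :
    runSegm rts 168000 328000 224000 pk bnds ones 0 (2771, 113) (2725, 77) 377 part5_6 = true := by
  decide +kernel

def part5_7 : List ℕ :=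
  [451, 476, 489, 501]

theorem chk5_7 :
    runSegm rts 168000 328000 224000 pk bnds ones 0 (2771, 113) (2725, 77) 439 part5_7 = true := by
  decide +kernel

def part5_8 : List ℕ :=
  [514, 527, 540, 552]

theorem chk5_8 :
    runSegm rts 168000 328000 224000 pk bnds ones 0 (2771, 113) (2725, 77) 501 part5_8 = true := by
  decide +kernel

def part5_9 : List ℕ :=
  [578, 591, 604, 631]

theorem chk5_9 :
    runSegm rts 168000 328000 224000 pk bnds ones 0 (2771, 113) (2725, 77) 552 part5_9 = true := by
  decide +kernel

def part5_10 : List ℕ :=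
  [644, 657, 671, 684]

theorem chk5_10 :
    runSegm rts 168000 328000 224000 pk bnds ones 0 (2771, 113) (2725, 77) 631 part5_10 = true := by
  decide +kernel

def part5_11 : List ℕ :=
  [698, 711, 725, 738]

theorem chk5_11 :
    runSegm rts 168000 328000 224000 pk bnds ones 0 (2771, 113) (2725, 77) 684 part5_11 = true := by
  decide +kernel

end Vale.Agent.P021.R2.H626
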