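import Vale.Agent.P021.R2.H626.Dat

set_option maxRecDepth 100000
set_option linter.all false

namespace Vale.Agent.P021.R2.H626

open Vale.Agent.P021.R2.H332

def part5_12 : List ℕ :=
  [752, 765, 779, 793]

theorem chk5_12 :
    runSegm rts 168000 328000 224000 pk bnds ones 0 (2771, 113) (2725, 77) 738 part5_12 = true := by
  decide +kernel

def part5_13 : List ℕ :=
  [807, 820, 835, 849]

theorem chk5_13 :
    runSegm rts 168000 328000 224000 pk bnds ones 0 (2771, 113) (2725, 77) 793 part5_13 = true := by
  decide +kernel

def part5_14 : List ℕ :=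
  [863, 877, 892, 906]

theorem chk5_14 :
    runSegm rts 168000 328000 224000 pk bnds ones 0 (2771, 113) (2725, 77) 849 part5_14 = true := by
  decide +kernel

def part5_15 : List ℕ :=
  [935, 950, 964, 979]

theorem chk5_15 :
    runSegm rts 168000 328000 224000 pk bnds ones 0 (2771, 113) (2725, 77) 906 part5_15 = true := by
  decide +kernel

def part5_16 : List ℕ :=
  [994, 1009, 1024]

theorem chk5_16 :
    runSegm rts 168000 328000 224000 pk bnds ones 0 (2771, 113) (2725, 77) 979 part5_16 = true := by
  decide +kernel

def part6_0 : List ℕ :=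
  [9, 17, 26, 35]

theorem chk6_0 :
    runSegm rts 168000 328000 224000 pk bnds ones 0 (2725, 77) (2662, 0) 0 part6_0 = true := by
  decide +kernel

def part6_1 : List ℕ :=
  [54, 63, 72, 91]

theorem chk6_1 :
    runSegm rts 168000 328000 224000 pk bnds ones 0 (2725, 77) (2662, 0) 35 part6_1 = true := by
  decide +kernel

def part6_2 : List ℕ :=
  [101, 110, 129, 139]

theorem chk6_2 :
    runSegm rts 168000 328000 224000 pk bnds ones 0 (2725, 77) (2662, 0) 91 part6_2 = true := by
  decide +kernel

def part6_3 : List ℕ :=
  [148, 168, 178, 188]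

theorem chk6_3 :
    runSegm rts 168000 328000 224000 pk bnds ones 0 (2725, 77) (2662, 0) 139 part6_3 = true := by
  decide +kernel

def part6_4 : List ℕ :=
  [208, 219, 229, 239]

theorem chk6_4 :
    runSegm rts 168000 328000 224000 pk bnds ones 0 (2725, 77) (2662, 0) 188 part6_4 = true := by
  decide +kernel

def part6_5 : List ℕ :=
  [249, 260, 271, 292]

theorem chk6_5 :
    runSegm rts 168000 328000 224000 pk bnds ones 0 (2725, 77) (2662, 0) 239 part6_5 = true := by
  decide +kernel

def part6_6 : List ℕ :=
  [303, 314, 337, 348]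

theorem chk6_6 :
    runSegm rts 168000 328000 224000 pk bnds ones 0 (2725, 77) (2662, 0) 292 part6_6 = true := by
  decide +kernel

def part6_7 : List ℕ :=
  [359, 383, 395, 407]

theorem chk6_7 :
    runSegm rts 168000 328000 224000 pk bnds ones 0 (2725, 77) (2662, 0) 348 part6_7 = true := by
  decide +kernel

end Vale.Agent.P021.R2.H626
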