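import Vale.Agent.P021.R2.H626.Dat

set_option maxRecDepth 100000
set_option linter.all false

namespace Vale.Agent.P021.R2.H626

open Vale.Agent.P021.R2.H332

def part6_8 : List ℕ :=
  [431, 444, 456, 482]

theorem chk6_8 :
    runSegm rts 168000 328000 224000 pk bnds ones 0 (2725, 77) (2662, 0) 407 part6_8 = true := by
  decide +kernel

def part6_9 : List ℕ :=
  [496, 509, 536, 550]

theorem chk6_9 :
    runSegm rts 168000 328000 224000 pk bnds ones 0 (2725, 77) (2662, 0) 482 part6_9 = true := by
  decide +kernel

def part6_10 : List ℕ :=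
  [564, 594, 610, 625]

theorem chk6_10 :
    runSegm rts 168000 328000 224000 pk bnds ones 0 (2725, 77) (2662, 0) 550 part6_10 = true := by
  decide +kernel

def part6_11 : List ℕ :=
  [657, 674, 691, 710]

theorem chk6_11 :
    runSegm rts 168000 328000 224000 pk bnds ones 0 (2725, 77) (2662, 0) 625 part6_11 = true := by
  decide +kernel

def part6_12 : List ℕ :=
  [728, 748, 767, 789]

theorem chk6_12 :
    runSegm rts 168000 328000 224000 pk bnds ones 0 (2725, 77) (2662, 0) 710 part6_12 = true := by
  decide +kernel

def part6_13 : List ℕ :=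
  [810, 835, 859, 889]

theorem chk6_13 :
    runSegm rts 168000 328000 224000 pk bnds ones 0 (2725, 77) (2662, 0) 789 part6_13 = true := by
  decide +kernel

def part6_14 : List ℕ :=
  [918, 971, 1024]

theorem chk6_14 :
    runSegm rts 168000 328000 224000 pk bnds ones 0 (2725, 77) (2662, 0) 889 part6_14 = true := by
  decide +kernel

def part7_0 : List ℕ :=
  [5, 9, 14, 18]

theorem chk7_0 :
    runSegm rts 168000 328000 224000 pk bnds ones 0 (2662, 0) (2048, 0) 0 part7_0 = true := by
  decide +kernel

def part7_1 : List ℕ :=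
  [25, 28, 31, 34]

theorem chk7_1 :
    runSegm rts 168000 328000 224000 pk bnds ones 0 (2662, 0) (2048, 0) 18 part7_1 = true := by
  decide +kernel

def part7_2 : List ℕ :=
  [37, 42, 47, 50]

theorem chk7_2 :
    runSegm rts 168000 328000 224000 pk bnds ones 0 (2662, 0) (2048, 0) 34 part7_2 = true := by
  decide +kernel

def part7_3 : List ℕ :=
  [52, 57, 61, 66]

theorem chk7_3 :
    runSegm rts 168000 328000 224000 pk bnds ones 0 (2662, 0) (2048, 0) 50 part7_3 = true := by
  decide +kernel

def part7_4 : List ℕ :=
  [70, 75, 79, 83]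

theorem chk7_4 :
    runSegm rts 168000 328000 224000 pk bnds ones 0 (2662, 0) (2048, 0) 66 part7_4 = true := by
  decide +kernel

def part7_5 : List ℕ :=
  [87, 91, 95, 99]

theorem chk7_5 :
    runSegm rts 168000 328000 224000 pk bnds ones 0 (2662, 0) (2048, 0) 83 part7_5 = true := by
  decide +kernel

end Vale.Agent.P021.R2.H626
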