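import Vale.Agent.P021.R2.H626.Dat

set_option maxRecDepth 100000
set_option linter.all false

namespace Vale.Agent.P021.R2.H626

open Vale.Agent.P021.R2.H332

def part7_6 : List ℕ :=
  [101, 103, 107, 110]

theorem chk7_6 :
    runSegm rts 168000 328000 224000 pk bnds ones 0 (2662, 0) (2048, 0) 99 part7_6 = true := by
  decide +kernel

def part7_7 : List ℕ :=
  [114, 118, 122, 125]

theorem chk7_7 :
    runSegm rts 168000 328000 224000 pk bnds ones 0 (2662, 0) (2048, 0) 110 part7_7 = true := by
  decide +kernel

def part7_8 : List ℕ :=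
  [132, 136, 139, 143]

theorem chk7_8 :
    runSegm rts 168000 328000 224000 pk bnds ones 0 (2662, 0) (2048, 0) 125 part7_8 = true := by
  decide +kernel

def part7_9 : List ℕ :=
  [146, 150, 153, 157]

theorem chk7_9 :
    runSegm rts 168000 328000 224000 pk bnds ones 0 (2662, 0) (2048, 0) 143 part7_9 = true := by
  decide +kernel

def part7_10 : List ℕ :=
  [160, 164, 167, 171]

theorem chk7_10 :
    runSegm rts 168000 328000 224000 pk bnds ones 0 (2662, 0) (2048, 0) 157 part7_10 = true := by
  decide +kernel

def part7_11 : List ℕ :=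
  [174, 177, 180, 184]

theorem chk7_11 :
    runSegm rts 168000 328000 224000 pk bnds ones 0 (2662, 0) (2048, 0) 171 part7_11 = true := by
  decide +kernel

def part7_12 : List ℕ :=
  [187, 190, 193, 199]

theorem chk7_12 :
    runSegm rts 168000 328000 224000 pk bnds ones 0 (2662, 0) (2048, 0) 184 part7_12 = true := by
  decide +kernel

def part7_13 : List ℕ :=
  [201, 203, 206, 212]

theorem chk7_13 :
    runSegm rts 168000 328000 224000 pk bnds ones 0 (2662, 0) (2048, 0) 199 part7_13 = true := by
  decide +kernel

def part7_14 : List ℕ :=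
  [215, 218, 222, 225]

theorem chk7_14 :
    runSegm rts 168000 328000 224000 pk bnds ones 0 (2662, 0) (2048, 0) 212 part7_14 = true := by
  decide +kernel

def part7_15 : List ℕ :=
  [228, 231, 237, 240]

theorem chk7_15 :
    runSegm rts 168000 328000 224000 pk bnds ones 0 (2662, 0) (2048, 0) 225 part7_15 = true := by
  decide +kernel

def part7_16 : List ℕ :=
  [243, 249, 252, 254]

theorem chk7_16 :
    runSegm rts 168000 328000 224000 pk bnds ones 0 (2662, 0) (2048, 0) 240 part7_16 = true := by
  decide +kernel

def part7_17 : List ℕ :=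
  [255, 261, 264, 267]

theorem chk7_17 :
    runSegm rts 168000 328000 224000 pk bnds ones 0 (2662, 0) (2048, 0) 254 part7_17 = true := by
  decide +kernel

def part7_18 : List ℕ :=
  [270, 273, 276, 278]

theorem chk7_18 :
    runSegm rts 168000 328000 224000 pk bnds ones 0 (2662, 0) (2048, 0) 267 part7_18 = true := by
  decide +kernel

end Vale.Agent.P021.R2.H626
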