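import Vale.Agent.P021.R2.H626.Cert
import Vale.Agent.P021.R2.H636.NonVan
import Vale.Agent.P021.R2.H120.Two
import Vale.Agent.P021.R2.H542.WinConst

set_option autoImplicit false

namespace Vale.Agent.P021.R2.H626

open Vale.Agent.P021.Det (cu)
open Vale.Agent.P021.R2.H636 Vale.Agent.P021.R2.H542 Vale.Agent.P021.R2.H120

theorem cwin_val : cwinE 384000 336000 656000 448000 275200 288000 (896000 / 3) 328000 336000
    344000 = 69739 / 60 * 16000 ^ 2 := by
  unfold cwinE cplain winF
  norm_num

theorem arith : ArithLower 384000 336000 656000 448000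
    (69739 / 60 * 16000 ^ 2 + 392000 ^ 2 / 6 * Real.log 2) := by
  have hT := twoBound 384000 336000 656000 448000 (by norm_num)
  have h := arithLower_win 384000 336000 656000 448000 hT (by norm_num) 275200 288000
    (896000 / 3) 328000 336000 344000
    (by norm_num) (by norm_num) (by norm_num) (by norm_num) (by norm_num) (by norm_num)
    (by norm_num)
  rw [cwin_val] at h
  norm_num at h ⊢
  exact h

theorem mu_le : irrationalityExponent Real.pi ≤ ((5.48 : ℝ) : EReal) := by
  have hl := Real.log_two_gt_d9
  have hl' := Real.log_two_lt_d9
  refine final_of (by norm_num) ?_ (by norm_num) arith archUpper nonVan ?_ ?_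
  · unfold cu
    positivity
  · unfold cu
    norm_num
    linarith
  · unfold cu
    norm_num
    linarith

end Vale.Agent.P021.R2.H626
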