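import Vale.Agent.P021.R2.H332.RCert
import Vale.Agent.P021.R2.H332.Arch
import Vale.Agent.P021.R2.H636.PathUU

set_option autoImplicit false

namespace Vale.Agent.P021.R2.H626

open Vale.Agent.P021.Det
open Vale.Agent.P021.R2.H636

theorem pt_im (U : ℤ × ℤ) : (pnt10 U).im = (U.2 : ℝ) / 2 ^ 10 := by
  unfold pnt10
  rw [Complex.add_im, Complex.ofReal_im, Complex.mul_im, Complex.ofReal_re, Complex.ofReal_im,
    Complex.I_im, Complex.I_re]
  ring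

theorem pt_re (U : ℤ × ℤ) : (pnt10 U).re = (U.1 : ℝ) / 2 ^ 10 := by
  unfold pnt10
  rw [Complex.add_re, Complex.ofReal_re, Complex.mul_re, Complex.ofReal_re, Complex.ofReal_im,
    Complex.I_im, Complex.I_re]
  ring

theorem pt_real (x : ℤ) : pnt10 (x, 0) = (((x : ℝ) / 2 ^ 10 : ℝ) : ℂ) := by
  simp [pnt10]

theorem mem_pos {x y : ℤ} (h : 0 < y) : pnt10 (x, y) ∈ UU := by
  apply mem_UU_of_im
  rw [pt_im]
  have : (0 : ℝ) < (y : ℝ) := by exact_mod_cast h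
  positivity

theorem mem_gt {x : ℤ} (h : 2897 ≤ x) : pnt10 (x, 0) ∈ UU := by
  have h1 := s8_lt'
  have h2 : (2897 : ℝ) ≤ (x : ℝ) := by exact_mod_cast h
  have h3 : s8 < (x : ℝ) / 2 ^ 10 := by
    rw [lt_div_iff₀ (by positivity)]
    nlinarith
  rw [pt_real]
  exact real_mem_UU h3.ne' (by linarith [s8_pos])

theorem mem_lt {x : ℤ} (h : x ≤ -2897) : pnt10 (x, 0) ∈ UU := by
  have h1 := s8_lt'
  have h2 : (x : ℝ) ≤ (-2897 : ℝ) := by exact_mod_cast h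
  have h3 : (x : ℝ) / 2 ^ 10 < -s8 := by
    rw [div_lt_iff₀ (by positivity)]
    nlinarith
  rw [pt_real]
  exact real_mem_UU (by linarith [s8_pos]) h3.ne

theorem mid_bd {x : ℤ} (h1 : -2896 ≤ x) (h2 : x ≤ 2896) :
    -s8 < (x : ℝ) / 2 ^ 10 ∧ (x : ℝ) / 2 ^ 10 < s8 := by
  have h := s8_gt'
  have h1' : (-2896 : ℝ) ≤ (x : ℝ) := by exact_mod_cast h1
  have h2' : (x : ℝ) ≤ (2896 : ℝ) := by exact_mod_cast h2
  constructor
  · rw [lt_div_iff₀ (by positivity)]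
    nlinarith
  · rw [div_lt_iff₀ (by positivity)]
    nlinarith

theorem mem_mid {x : ℤ} (h1 : -2896 ≤ x) (h2 : x ≤ 2896) : pnt10 (x, 0) ∈ UU := by
  obtain ⟨h3, h4⟩ := mid_bd h1 h2
  rw [pt_real]
  exact real_mem_UU h4.ne (by linarith)

theorem sg_mid {x y : ℤ} (h1 : -2896 ≤ x) (h2 : x ≤ 2896) (h3 : -2896 ≤ y) (h4 : y ≤ 2896) :
    segment ℝ (pnt10 (x, 0)) (pnt10 (y, 0)) ⊆ UU := by
  obtain ⟨a1, a2⟩ := mid_bd h1 h2
  obtain ⟨b1, b2⟩ := mid_bd h3 h4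
  refine seg_UU_real ?_ ?_ ?_ ?_ ?_ ?_
  · rw [pt_im]; simp
  · rw [pt_im]; simp
  · rw [pt_re]; exact a1
  · rw [pt_re]; exact a2
  · rw [pt_re]; exact b1
  · rw [pt_re]; exact b2

theorem sg_up {x y x' y' : ℤ} (ha : pnt10 (x, y) ∈ UU) (hb : pnt10 (x', y') ∈ UU)
    (h : 0 < y ∨ 0 < y') : segment ℝ (pnt10 (x, y)) (pnt10 (x', y')) ⊆ UU := by
  refine seg_UU ha hb ?_
  rcases h with h | h
  · left
    rw [pt_im]
    have : (0 : ℝ) < (y : ℝ) := by exact_mod_cast h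
    positivity
  · right
    rw [pt_im]
    have : (0 : ℝ) < (y' : ℝ) := by exact_mod_cast h
    positivity

theorem sg_bdd (u v : ℂ) : Bornology.IsBounded (segment ℝ u v) := by
  rw [← convexHull_pair]
  exact isBounded_convexHull.mpr (Set.toFinite _).isBounded

end Vale.Agent.P021.R2.H626
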